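import Vale.Agent.P159.Main

/-! P159: a lower bound on the correlation length of the XY model near the critical point. -/

open Filter Topology

namespace Vale.Agent.Results.P159.XiLower

open Vale.Agent.P159

theorem result :
    (∀ b : ℝ, 0 < b →
      (∀ r : ℕ, Tendsto (fun R => corr R b (0, 0) (r, 0)) atTop (𝓝 (C b r))) ∧
      Tendsto (fun r : ℕ => -(1 / (r : ℝ)) * Real.log (C b r)) atTop (𝓝 (mass b))) ∧
    ∃ ν : ℝ, 1 / 2 < ν ∧ ∃ c : ℝ, 0 < c ∧ ∀ b : ℝ, bc / 2 ≤ b → b < bc →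
      0 < mass b ∧ c * (bc - b) ^ (-ν) ≤ (mass b)⁻¹ :=
  ⟨fun b hb => ⟨fun r => (C_eq hb.le r).symm ▸ tendsto_Gam hb.le _ _, tendsto_mass hb⟩, xi_lower⟩

end Vale.Agent.Results.P159.XiLower
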